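import Mathlib
import Vale.Agent.P082.Main

namespace Vale.Agent.Results.P082.Vanishing

universe u

/-- The Hochschild differential of a `k`-cochain `f : A^k → A` with coefficients in `A`
(0-indexed arguments `a 0, …, a k`):
`(df)(a) = a 0 * f(a 1, …, a k) + ∑_{j<k} (-1)^(j+1) f(a 0, …, a j * a (j+1), …, a k)
  + (-1)^(k+1) f(a 0, …, a (k-1)) * a k`. -/
def hochschildD {A : Type*} [Ring A] [Algebra ℂ A] {k : ℕ} (f : (Fin k → A) → A)
    (a : Fin (k + 1) → A) : A :=
  a 0 * f (Fin.tail a) +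
    ∑ j : Fin k, (-1 : ℂ) ^ (j.val + 1) • f (Fin.contractNth j.castSucc (· * ·) a) +
    (-1 : ℂ) ^ (k + 1) • (f (Fin.init a) * a (Fin.last k))

theorem result {H : Type u} [NormedAddCommGroup H] [InnerProductSpace ℂ H] [CompleteSpace H]
    (M : VonNeumannAlgebra H) (k : ℕ)
    (f : ContinuousMultilinearMap ℂ (fun _ : Fin (k + 1) => M.toStarSubalgebra) M.toStarSubalgebra)
    (hf : ∀ a, hochschildD f a = 0) :
    ∃ g : ContinuousMultilinearMap ℂ (fun _ : Fin k => M.toStarSubalgebra) M.toStarSubalgebra,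
      ∀ a, hochschildD g a = f a :=
  Vale.Agent.P082.main_vn M f hf

end Vale.Agent.Results.P082.Vanishing
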